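import Mathlib.Analysis.SpecialFunctions.Exp
import Mathlib.Tactic.Linarith
import Mathlib.Tactic.LinearCombination

/-!
# P088, zone C: elementary bounds of the quantum terms
-/

namespace Vale.Agent.P088.R2.H406.C

theorem mb {x y X Y : ℝ} (hx : |x| ≤ X) (hy : |y| ≤ Y) : |x * y| ≤ X * Y := by
  rw [abs_mul]
  exact mul_le_mul hx hy (abs_nonneg _) ((abs_nonneg _).trans hx)

theorem ms {x X : ℝ} (hx : |x| ≤ X) : x ^ 2 ≤ X ^ 2 := by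
  rw [← sq_abs x]
  exact pow_le_pow_left₀ (abs_nonneg _) hx 2

section sq

variable {kx ky k0 α μ ν p s r K E B nn : ℝ}

/-- `|W_xx|²`. -/
def Sx (kx α μ ν p s nn : ℝ) : ℝ :=
  kx ^ 2 + (α ^ 2 + α ^ 2) * s + μ ^ 2 * s ^ 2 + ν ^ 2 * nn +
    2 * kx * (α + α) * p + 2 * (kx * μ + α * α) * p ^ 2 + 2 * (kx * ν) +
    2 * (α + α) * (μ * s + ν) * p + 2 * (μ * ν) * s

/-- `|W_xy|²`. -/
def Sxy (k0 α μ ν p s nn : ℝ) : ℝ :=
  k0 ^ 2 + ((-α) ^ 2 + α ^ 2) * s + (-μ) ^ 2 * s ^ 2 + (-ν) ^ 2 * nn +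
    2 * k0 * (-α + α) * p + 2 * (k0 * -μ + -α * α) * p ^ 2 + 2 * (k0 * -ν) +
    2 * (-α + α) * (-μ * s + -ν) * p + 2 * (-μ * -ν) * s

/-- The bounds of the coefficients of the Hessian. -/
structure BH (kx ky k0 α μ ν p s r K E B : ℝ) : Prop where
  K0 : 0 ≤ K
  E0 : 0 ≤ E
  r0 : 0 ≤ r
  r1 : r ≤ 1
  hs : s = r ^ 2
  hp : |p| ≤ r
  x : |kx| ≤ B * (K + E * s)
  y : |ky| ≤ B * (K + E * s)
  z : |k0| ≤ B * (K + E * s)
  α : |α| ≤ B * E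
  μ : |μ| ≤ 2 * B * E
  ν : |ν| ≤ B * E
  dx : |kx - ky| ≤ B * K * r
  dz : |kx + ky - 2 * k0| ≤ B * K

variable (h : BH kx ky k0 α μ ν p s r K E B)
include h

theorem BH.s0 : 0 ≤ s := by rw [h.hs]; exact sq_nonneg _

theorem BH.s1 : s ≤ 1 := by rw [h.hs]; exact pow_le_one₀ h.r0 h.r1

theorem BH.sr : s ≤ r := by
  rw [h.hs]; nlinarith [h.r0, h.r1]

theorem BH.kap : (K + E * s) ^ 2 ≤ 2 * K ^ 2 + 2 * (E ^ 2 * s) := by
  have h1 : E ^ 2 * s ^ 2 ≤ E ^ 2 * s := by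
    have := h.s0; have := h.s1
    have h2 : s ^ 2 ≤ s := by nlinarith
    exact mul_le_mul_of_nonneg_left h2 (sq_nonneg _)
  nlinarith [sq_nonneg (K - E * s)]

/-- The coefficient of `b²`. -/
theorem BH.A : |Sx kx α μ ν p s nn + Sx ky (-α) μ ν p s nn + 2 * Sxy k0 α μ ν p s nn -
    4 * nn * ν ^ 2| ≤ 48 * B ^ 2 * (K ^ 2 + K * E + E ^ 2 * s) := by
  have hs0 := h.s0
  have hs1 := h.s1
  have hk := h.kap
  have B0 : 0 ≤ B ^ 2 := sq_nonneg B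
  have k1 := ms h.x
  have k2 := ms h.y
  have k3 := ms h.z
  have a1 := ms h.α
  have m1 := ms h.μ
  have e : Sx kx α μ ν p s nn + Sx ky (-α) μ ν p s nn + 2 * Sxy k0 α μ ν p s nn -
    4 * nn * ν ^ 2 = kx ^ 2 + ky ^ 2 + 2 * k0 ^ 2 + 8 * (α ^ 2 * s) + 4 * (μ ^ 2 * s ^ 2) +
      4 * (α * ((kx - ky) * p)) + 2 * (μ * ((kx + ky - 2 * k0) * p ^ 2)) +
      2 * (ν * (kx + ky - 2 * k0)) + 8 * (μ * ν * s) := by
    unfold Sx Sxy; ring
  rw [e]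
  have t1 : α ^ 2 * s ≤ (B * E) ^ 2 * s := mul_le_mul_of_nonneg_right a1 hs0
  have t2 : μ ^ 2 * s ^ 2 ≤ (2 * B * E) ^ 2 * s := by
    calc μ ^ 2 * s ^ 2 ≤ (2 * B * E) ^ 2 * s ^ 2 := mul_le_mul_of_nonneg_right m1 (sq_nonneg _)
      _ ≤ (2 * B * E) ^ 2 * s :=
        mul_le_mul_of_nonneg_left (by nlinarith) (sq_nonneg _)
  have p2 : |p ^ 2| ≤ s := by
    rw [abs_of_nonneg (sq_nonneg p), h.hs]; exact ms h.hp
  have t3 := abs_le.1 (mb h.α (mb h.dx h.hp))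
  have t4 := abs_le.1 (mb h.μ (mb h.dz p2))
  have t5 := abs_le.1 (mb h.ν h.dz)
  have t6 := abs_le.1 (mb (mb h.μ h.ν) (abs_of_nonneg hs0).le)
  have z1 : 0 ≤ α ^ 2 * s := mul_nonneg (sq_nonneg _) hs0
  have z2 : 0 ≤ μ ^ 2 * s ^ 2 := by positivity
  have hKE : 0 ≤ K * E := mul_nonneg h.K0 h.E0
  have x3 : B * E * (B * K * r * r) ≤ B ^ 2 * (K * E) := by
    have e1 : B * E * (B * K * r * r) = B ^ 2 * (K * E) * s := by rw [h.hs]; ring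
    rw [e1]
    exact mul_le_of_le_one_right (mul_nonneg B0 hKE) hs1
  have x4 : 2 * B * E * (B * K * s) ≤ 2 * (B ^ 2 * (K * E)) := by
    have e1 : 2 * B * E * (B * K * s) = 2 * (B ^ 2 * (K * E) * s) := by ring
    rw [e1]
    have := mul_le_of_le_one_right (mul_nonneg B0 hKE) hs1
    linarith
  have x5 : B * E * (B * K) = B ^ 2 * (K * E) := by ring
  have x6 : 2 * B * E * (B * E) * s = 2 * (B ^ 2 * (E ^ 2 * s)) := by ring
  have x7 : (B * (K + E * s)) ^ 2 ≤ 2 * (B ^ 2 * K ^ 2) + 2 * (B ^ 2 * (E ^ 2 * s)) := by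
    have := mul_le_mul_of_nonneg_left hk B0
    nlinarith
  have x8 : (B * E) ^ 2 * s = B ^ 2 * (E ^ 2 * s) := by ring
  have x9 : (2 * B * E) ^ 2 * s = 4 * (B ^ 2 * (E ^ 2 * s)) := by ring
  have n1 : 0 ≤ B ^ 2 * K ^ 2 := by positivity
  have n2 : 0 ≤ B ^ 2 * (K * E) := mul_nonneg B0 hKE
  have n3 : 0 ≤ B ^ 2 * (E ^ 2 * s) := by positivity
  have e9 : 48 * B ^ 2 * (K ^ 2 + K * E + E ^ 2 * s) =
    48 * (B ^ 2 * K ^ 2) + 48 * (B ^ 2 * (K * E)) + 48 * (B ^ 2 * (E ^ 2 * s)) := by ring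
  rw [e9, abs_le]
  have q1 := sq_nonneg kx
  have q2 := sq_nonneg ky
  have q3 := sq_nonneg k0
  constructor
  · linarith [t3.1, t4.1, t5.1, t6.1]
  · linarith [t3.2, t4.2, t5.2, t6.2]

/-- The coefficient of `c²`. -/
theorem BH.D : |Sx kx α μ ν p s nn + Sx ky (-α) μ ν p s nn - 2 * Sxy k0 α μ ν p s nn| ≤
    48 * B ^ 2 * (K ^ 2 + K * E + E ^ 2 * s) := by
  have hs0 := h.s0
  have hs1 := h.s1
  have hk := h.kap
  have B0 : 0 ≤ B ^ 2 := sq_nonneg B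
  have k1 := ms h.x
  have k2 := ms h.y
  have k3 := ms h.z
  have a1 := ms h.α
  have e : Sx kx α μ ν p s nn + Sx ky (-α) μ ν p s nn - 2 * Sxy k0 α μ ν p s nn =
      kx ^ 2 + ky ^ 2 - 2 * k0 ^ 2 + 4 * (α * ((kx - ky) * p)) +
      2 * (μ * ((kx + ky + 2 * k0) * p ^ 2)) + 8 * (α ^ 2 * p ^ 2) +
      2 * (ν * (kx + ky + 2 * k0)) := by
    unfold Sx Sxy; ring
  rw [e]
  have p2 : |p ^ 2| ≤ s := by
    rw [abs_of_nonneg (sq_nonneg p), h.hs]; exact ms h.hp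
  have p3 : p ^ 2 ≤ s := (le_abs_self _).trans p2
  have t1 : α ^ 2 * p ^ 2 ≤ (B * E) ^ 2 * s := mul_le_mul a1 p3 (sq_nonneg _) (sq_nonneg _)
  have ks : |kx + ky + 2 * k0| ≤ 4 * (B * (K + E * s)) := by
    rw [abs_le]
    have a := abs_le.1 h.x
    have b := abs_le.1 h.y
    have c := abs_le.1 h.z
    constructor <;> linarith [a.1, a.2, b.1, b.2, c.1, c.2]
  have t3 := abs_le.1 (mb h.α (mb h.dx h.hp))
  have t4 := abs_le.1 (mb h.μ (mb ks p2))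
  have t5 := abs_le.1 (mb h.ν ks)
  have z1 : 0 ≤ α ^ 2 * p ^ 2 := by positivity
  have hKE : 0 ≤ K * E := mul_nonneg h.K0 h.E0
  have n1 : 0 ≤ B ^ 2 * K ^ 2 := by positivity
  have n2 : 0 ≤ B ^ 2 * (K * E) := mul_nonneg B0 hKE
  have n3 : 0 ≤ B ^ 2 * (E ^ 2 * s) := by positivity
  have x3 : B * E * (B * K * r * r) ≤ B ^ 2 * (K * E) := by
    have e1 : B * E * (B * K * r * r) = B ^ 2 * (K * E) * s := by rw [h.hs]; ring
    rw [e1]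
    exact mul_le_of_le_one_right (mul_nonneg B0 hKE) hs1
  have x5 : B * E * (4 * (B * (K + E * s))) = 4 * (B ^ 2 * (K * E)) +
      4 * (B ^ 2 * (E ^ 2 * s)) := by ring
  have x4 : 2 * B * E * (4 * (B * (K + E * s)) * s) ≤ 8 * (B ^ 2 * (K * E)) +
      8 * (B ^ 2 * (E ^ 2 * s)) := by
    have e1 : 2 * B * E * (4 * (B * (K + E * s)) * s) = 8 * ((B ^ 2 * (K * E) +
      B ^ 2 * (E ^ 2 * s)) * s) := by ring
    rw [e1]
    have := mul_le_of_le_one_right (add_nonneg n2 n3) hs1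
    linarith
  have x7 : (B * (K + E * s)) ^ 2 ≤ 2 * (B ^ 2 * K ^ 2) + 2 * (B ^ 2 * (E ^ 2 * s)) := by
    have := mul_le_mul_of_nonneg_left hk B0
    nlinarith
  have x8 : (B * E) ^ 2 * s = B ^ 2 * (E ^ 2 * s) := by ring
  have e9 : 48 * B ^ 2 * (K ^ 2 + K * E + E ^ 2 * s) =
    48 * (B ^ 2 * K ^ 2) + 48 * (B ^ 2 * (K * E)) + 48 * (B ^ 2 * (E ^ 2 * s)) := by ring
  rw [e9, abs_le]
  have q1 := sq_nonneg kx
  have q2 := sq_nonneg ky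
  have q3 := sq_nonneg k0
  constructor
  · linarith [t3.1, t4.1, t5.1]
  · linarith [t3.2, t4.2, t5.2]

/-- The coefficient of `b c`. -/
theorem BH.X : |Sx kx α μ ν p s nn - Sx ky (-α) μ ν p s nn| ≤
    32 * B ^ 2 * (K + E) ^ 2 * r := by
  have hs0 := h.s0
  have hs1 := h.s1
  have B0 : 0 ≤ B ^ 2 := sq_nonneg B
  have e : Sx kx α μ ν p s nn - Sx ky (-α) μ ν p s nn = (kx - ky) * (kx + ky) +
      4 * (α * ((kx + ky) * p)) + 2 * (μ * ((kx - ky) * p ^ 2)) + 2 * (ν * (kx - ky)) +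
      8 * (α * ((μ * s + ν) * p)) := by
    unfold Sx; ring
  rw [e]
  have r0 := h.r0
  have p2 : |p ^ 2| ≤ s := by
    rw [abs_of_nonneg (sq_nonneg p), h.hs]; exact ms h.hp
  have ks : |kx + ky| ≤ 2 * (B * (K + E * s)) := by
    rw [abs_le]
    have a := abs_le.1 h.x
    have b := abs_le.1 h.y
    constructor <;> linarith [a.1, a.2, b.1, b.2]
  have ms' : |μ * s + ν| ≤ 2 * B * E * s + B * E := by
    rw [abs_le]
    have a := abs_le.1 (mb h.μ (abs_of_nonneg hs0).le)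
    have b := abs_le.1 h.ν
    constructor <;> linarith [a.1, a.2, b.1, b.2]
  have t1 := abs_le.1 (mb h.dx ks)
  have t2 := abs_le.1 (mb h.α (mb ks h.hp))
  have t3 := abs_le.1 (mb h.μ (mb h.dx p2))
  have t4 := abs_le.1 (mb h.ν h.dx)
  have t5 := abs_le.1 (mb h.α (mb ms' h.hp))
  have hKE : 0 ≤ K * E := mul_nonneg h.K0 h.E0
  have n1 : 0 ≤ B ^ 2 * K ^ 2 * r := by positivity
  have n2 : 0 ≤ B ^ 2 * (K * E) * r := mul_nonneg (mul_nonneg B0 hKE) r0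
  have n3 : 0 ≤ B ^ 2 * E ^ 2 * r := by positivity
  have l2 := mul_le_of_le_one_right n2 hs1
  have l3 := mul_le_of_le_one_right n3 hs1
  have y1 : B * K * r * (2 * (B * (K + E * s))) = 2 * (B ^ 2 * K ^ 2 * r) +
      2 * (B ^ 2 * (K * E) * r * s) := by ring
  have y2 : B * E * (2 * (B * (K + E * s)) * r) = 2 * (B ^ 2 * (K * E) * r) +
      2 * (B ^ 2 * E ^ 2 * r * s) := by ring
  have y3 : 2 * B * E * (B * K * r * s) = 2 * (B ^ 2 * (K * E) * r * s) := by ring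
  have y4 : B * E * (B * K * r) = B ^ 2 * (K * E) * r := by ring
  have y5 : B * E * ((2 * B * E * s + B * E) * r) = 2 * (B ^ 2 * E ^ 2 * r * s) +
      B ^ 2 * E ^ 2 * r := by ring
  have e9 : 32 * B ^ 2 * (K + E) ^ 2 * r = 32 * (B ^ 2 * K ^ 2 * r) +
    64 * (B ^ 2 * (K * E) * r) + 32 * (B ^ 2 * E ^ 2 * r) := by ring
  rw [e9, abs_le]
  constructor
  · linarith [t1.1, t2.1, t3.1, t4.1, t5.1]
  · linarith [t1.2, t2.2, t3.2, t4.2, t5.2]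

end sq

end Vale.Agent.P088.R2.H406.C
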