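import Vale.Agent.P088.R2.H406.C.Abs

/-!
# P088, zone C: elementary bounds of the quantum terms, third and fourth order
-/

namespace Vale.Agent.P088.R2.H406.C

/-- The bounds of the derivatives at a point. -/
structure BT (f3x f3y p3 f4x f4y p4 g0 g1 g2 g3 g4 F0 F1 F2 L1 L2 L3 p r K E M : ℝ) : Prop where
  K0 : 0 ≤ K
  E0 : 0 ≤ E
  r0 : 0 ≤ r
  r1 : r ≤ 1
  M1 : 1 ≤ M
  hp : |p| ≤ r
  f3x : |f3x| ≤ M * K
  f3y : |f3y| ≤ M * K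
  p3 : |p3| ≤ M * K
  f4x : |f4x| ≤ M * K
  f4y : |f4y| ≤ M * K
  p4 : |p4| ≤ M * K
  g0 : |g0| ≤ M * E
  g1 : |g1| ≤ M * E
  g2 : |g2| ≤ M * E
  g3 : |g3| ≤ M * E
  g4 : |g4| ≤ M * E
  F0 : |F0| ≤ M * r ^ 2
  F1 : |F1| ≤ M
  F2 : |F2| ≤ M
  L1 : |L1| ≤ M
  L2 : |L2| ≤ M
  L3 : |L3| ≤ M

section bt

variable {f3x f3y p3 f4x f4y p4 g0 g1 g2 g3 g4 F0 F1 F2 L1 L2 L3 p r K E M u v om y Y : ℝ}
  (h : BT f3x f3y p3 f4x f4y p4 g0 g1 g2 g3 g4 F0 F1 F2 L1 L2 L3 p r K E M)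
include h

theorem BT.F0' : |F0| ≤ M := h.F0.trans
  (mul_le_of_le_one_right (by linarith [h.M1]) (pow_le_one₀ h.r0 h.r1))

theorem BT.hp' : |p| ≤ 1 := h.hp.trans h.r1

/-- Third order, sum. -/
theorem BT.T1 (ho : |om| ≤ r * Y) :
    |f3x * u + f3y * v + 2 * (p3 * (u + v)) + 2 * (g3 * (u + v) * F0 + g2 * (F1 * (2 * om)) +
      g1 * (u + v) * L1 + g0 * (L2 * (2 * om)))| ≤
    8 * M ^ 2 * ((K + E) * (|u| + |v|) + E * r * Y) := by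
  have M1 := h.M1
  have M0 : 0 ≤ M := by linarith
  have K0 := h.K0
  have E0 := h.E0
  set Z := |u| + |v| with hZ
  have Z0 : 0 ≤ Z := by positivity
  have hu : |u| ≤ |u| := le_rfl
  have hv : |v| ≤ |v| := le_rfl
  have huv : |u + v| ≤ Z := abs_add_le u v
  have ho2 : |2 * om| ≤ 2 * (r * Y) := by
    rw [abs_mul, abs_of_pos (by norm_num : (0 : ℝ) < 2)]; linarith
  have t1 := abs_le.1 (mb h.f3x hu)
  have t2 := abs_le.1 (mb h.f3y hv)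
  have t3 := abs_le.1 (mb h.p3 huv)
  have t4 := abs_le.1 (mb (mb h.g3 huv) h.F0')
  have t5 := abs_le.1 (mb h.g2 (mb h.F1 ho2))
  have t6 := abs_le.1 (mb (mb h.g1 huv) h.L1)
  have t7 := abs_le.1 (mb h.g0 (mb h.L2 ho2))
  have s1 : M * K * |u| + M * K * |v| = M * (K * Z) := by rw [hZ]; ring
  have s2 : M * K * Z = M * (K * Z) := by ring
  have s3 : M * E * Z * M = M ^ 2 * (E * Z) := by ring
  have rY : 0 ≤ r * Y := (abs_nonneg _).trans ho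
  have s4 : M * E * (M * (2 * (r * Y))) = 2 * (M ^ 2 * (E * (r * Y))) := by ring
  have MM : M ≤ M ^ 2 := by nlinarith
  have s5 : M * (K * Z) ≤ M ^ 2 * (K * Z) :=
    mul_le_mul_of_nonneg_right MM (mul_nonneg K0 Z0)
  have e9 : 8 * M ^ 2 * ((K + E) * Z + E * r * Y) = 8 * (M ^ 2 * (K * Z)) +
    8 * (M ^ 2 * (E * Z)) + 8 * (M ^ 2 * (E * (r * Y))) := by ring
  have n1 : 0 ≤ M ^ 2 * (K * Z) := by positivity
  have n2 : 0 ≤ M ^ 2 * (E * Z) := by positivity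
  have n3 : 0 ≤ M ^ 2 * (E * (r * Y)) := mul_nonneg (sq_nonneg _) (mul_nonneg E0 rY)
  rw [e9, abs_le]
  constructor
  · linarith [t1.1, t2.1, t3.1, t4.1, t5.1, t6.1, t7.1]
  · linarith [t1.2, t2.2, t3.2, t4.2, t5.2, t6.2, t7.2]

/-- Third order, difference. -/
theorem BT.T2 (ho : |om| ≤ r * Y) (hy : |y| ≤ Y) :
    |f3x * u - f3y * v + 8 * (g2 * (u + v) * (F1 * p) + g1 * (F2 * (2 * om) * p + F1 * y))| ≤
    24 * M ^ 2 * (K * (|u| + |v|) + E * r * (|u| + |v|) + E * Y) := by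
  have M1 := h.M1
  have M0 : 0 ≤ M := by linarith
  have K0 := h.K0
  have E0 := h.E0
  have r0 := h.r0
  have r1 := h.r1
  set Z := |u| + |v| with hZ
  have Z0 : 0 ≤ Z := by positivity
  have Y0 : 0 ≤ Y := (abs_nonneg _).trans hy
  have hu : |u| ≤ |u| := le_rfl
  have hv : |v| ≤ |v| := le_rfl
  have huv : |u + v| ≤ Z := abs_add_le u v
  have ho2 : |2 * om| ≤ 2 * (r * Y) := by
    rw [abs_mul, abs_of_pos (by norm_num : (0 : ℝ) < 2)]; linarith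
  have t1 := abs_le.1 (mb h.f3x hu)
  have t2 := abs_le.1 (mb h.f3y hv)
  have t4 := abs_le.1 (mb (mb h.g2 huv) (mb h.F1 h.hp))
  have t5 := abs_le.1 (mb h.g1 (mb (mb h.F2 ho2) h.hp))
  have t6 := abs_le.1 (mb h.g1 (mb h.F1 hy))
  have s1 : M * K * |u| + M * K * |v| = M * (K * Z) := by rw [hZ]; ring
  have s3 : M * E * Z * (M * r) = M ^ 2 * (E * r * Z) := by ring
  have s4 : M * E * (M * (2 * (r * Y)) * r) = 2 * (M ^ 2 * (E * Y) * (r * r)) := by ring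
  have s6 : M * E * (M * Y) = M ^ 2 * (E * Y) := by ring
  have n1 : 0 ≤ M ^ 2 * (K * Z) := by positivity
  have n2 : 0 ≤ M ^ 2 * (E * r * Z) := by positivity
  have n3 : 0 ≤ M ^ 2 * (E * Y) := by positivity
  have s7 : M ^ 2 * (E * Y) * (r * r) ≤ M ^ 2 * (E * Y) :=
    mul_le_of_le_one_right n3 (by nlinarith)
  have MM : M ≤ M ^ 2 := by nlinarith
  have s5 : M * (K * Z) ≤ M ^ 2 * (K * Z) :=
    mul_le_mul_of_nonneg_right MM (mul_nonneg K0 Z0)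
  have e9 : 24 * M ^ 2 * (K * Z + E * r * Z + E * Y) = 24 * (M ^ 2 * (K * Z)) +
    24 * (M ^ 2 * (E * r * Z)) + 24 * (M ^ 2 * (E * Y)) := by ring
  have e0 : f3x * u - f3y * v + 8 * (g2 * (u + v) * (F1 * p) + g1 * (F2 * (2 * om) * p +
      F1 * y)) = f3x * u - f3y * v + 8 * (g2 * (u + v) * (F1 * p)) +
      8 * (g1 * (F2 * (2 * om) * p)) + 8 * (g1 * (F1 * y)) := by ring
  rw [e9, e0, abs_le]
  constructor
  · linarith [t1.1, t2.2, t4.1, t5.1, t6.1]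
  · linarith [t1.2, t2.1, t4.2, t5.2, t6.2]

/-- Fourth order. -/
theorem BT.L :
    |f4x + p4 + (g4 * F0 + 4 * (g3 * (F1 * p)) + g2 * L1) + 4 * (g3 * (F1 * p) +
      4 * (g2 * (F2 * p * p)) + 2 * (g2 * F1) + g1 * (L2 * p)) +
      (g2 * L1 + 4 * (g1 * (L2 * p)) + g0 * L3)| ≤ 44 * M ^ 2 * (K + E) ∧
    |p4 + (g4 * F0 + 4 * (g3 * (F1 * p)) + g2 * L1) - 4 * (g3 * (F1 * p) +
      4 * (g2 * (F2 * p * p)) + 2 * (g2 * F1) + g1 * (L2 * p)) +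
      (g2 * L1 + 4 * (g1 * (L2 * p)) + g0 * L3)| ≤ 44 * M ^ 2 * (K + E) ∧
    |f4y + p4 + (g4 * F0 - 4 * (g3 * (F1 * p)) + g2 * L1) - 4 * (g3 * (F1 * p) -
      4 * (g2 * (F2 * p * p)) - 2 * (g2 * F1) + g1 * (L2 * p)) +
      (g2 * L1 - 4 * (g1 * (L2 * p)) + g0 * L3)| ≤ 44 * M ^ 2 * (K + E) := by
  have M1 := h.M1
  have M0 : 0 ≤ M := by linarith
  have K0 := h.K0
  have E0 := h.E0
  have u1 := abs_le.1 h.f4x
  have u2 := abs_le.1 h.f4y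
  have u3 := abs_le.1 h.p4
  have t1 := abs_le.1 (mb h.g4 h.F0')
  have t2 := abs_le.1 (mb h.g3 (mb h.F1 h.hp'))
  have t3 := abs_le.1 (mb h.g2 h.L1)
  have t4 := abs_le.1 (mb h.g2 (mb (mb h.F2 h.hp') h.hp'))
  have t5 := abs_le.1 (mb h.g2 h.F1)
  have t6 := abs_le.1 (mb h.g1 (mb h.L2 h.hp'))
  have t7 := abs_le.1 (mb h.g0 h.L3)
  have s1 : M * E * M = M ^ 2 * E := by ring
  have s2 : M * E * (M * 1) = M ^ 2 * E := by ring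
  have s3 : M * E * (M * 1 * 1) = M ^ 2 * E := by ring
  rw [s1] at t1 t3 t5 t7
  rw [s2] at t2 t6
  rw [s3] at t4
  have MM : M ≤ M ^ 2 := by nlinarith
  have s5 : M * K ≤ M ^ 2 * K := mul_le_mul_of_nonneg_right MM K0
  have n1 : 0 ≤ M ^ 2 * K := by positivity
  have e9 : 44 * M ^ 2 * (K + E) = 44 * (M ^ 2 * K) + 44 * (M ^ 2 * E) := by ring
  rw [e9]
  refine ⟨abs_le.2 ⟨?_, ?_⟩, abs_le.2 ⟨?_, ?_⟩, abs_le.2 ⟨?_, ?_⟩⟩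
  · linarith [u1.1, u3.1, t1.1, t2.1, t3.1, t4.1, t5.1, t6.1, t7.1]
  · linarith [u1.2, u3.2, t1.2, t2.2, t3.2, t4.2, t5.2, t6.2, t7.2]
  · linarith [u3.1, t1.1, t2.1, t2.2, t3.1, t4.2, t5.2, t6.1, t6.2, t7.1]
  · linarith [u3.2, t1.2, t2.1, t2.2, t3.2, t4.1, t5.1, t6.1, t6.2, t7.2]
  · linarith [u2.1, u3.1, t1.1, t2.2, t3.1, t4.1, t5.1, t6.2, t7.1]
  · linarith [u2.2, u3.2, t1.2, t2.1, t3.2, t4.2, t5.2, t6.1, t7.2]

end bt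

/-- The quantum terms, abstract constants. -/
theorem qlow0 {sx sy sxy DX DY lx lm ly b c m a x t t' l : ℝ}
    (hA : |sx + sy + 2 * sxy - m| ≤ a) (hD : |sx + sy - 2 * sxy| ≤ a) (hX : |sx - sy| ≤ x)
    (h1 : |DX + DY| ≤ t) (h2 : |DX - DY| ≤ t') (h3 : |lx| ≤ l) (h4 : |lm| ≤ l) (h5 : |ly| ≤ l) :
    -(8 * m * b ^ 2) - 8 * (a * (b ^ 2 + c ^ 2)) - 16 * (x * (|b| * |c|)) - 8 * (t * |b|) -
      8 * (t' * |c|) - 12 * (l * (b ^ 2 + c ^ 2)) ≤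
    -(8 * (sx * (b + c) ^ 2 + 2 * (sxy * ((b + c) * (b - c))) + sy * (b - c) ^ 2)) -
      8 * ((b + c) * DX + (b - c) * DY) +
      2 * (lx * (b + c) ^ 2 + 2 * (lm * ((b + c) * (b - c))) + ly * (b - c) ^ 2) := by
  have e1 : -(8 * (sx * (b + c) ^ 2 + 2 * (sxy * ((b + c) * (b - c))) + sy * (b - c) ^ 2)) -
      8 * ((b + c) * DX + (b - c) * DY) +
      2 * (lx * (b + c) ^ 2 + 2 * (lm * ((b + c) * (b - c))) + ly * (b - c) ^ 2) =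
      -(8 * m * b ^ 2) - 8 * ((sx + sy + 2 * sxy - m) * b ^ 2) -
      8 * ((sx + sy - 2 * sxy) * c ^ 2) - 16 * ((sx - sy) * (b * c)) -
      8 * (b * (DX + DY)) - 8 * (c * (DX - DY)) +
      2 * (lx * (b + c) ^ 2 + 2 * (lm * ((b + c) * (b - c))) + ly * (b - c) ^ 2) := by ring
  rw [e1]
  have bb : |b ^ 2| ≤ b ^ 2 := by rw [abs_of_nonneg (sq_nonneg b)]
  have cc : |c ^ 2| ≤ c ^ 2 := by rw [abs_of_nonneg (sq_nonneg c)]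
  have b1 : |b| ≤ |b| := le_rfl
  have c1 : |c| ≤ |c| := le_rfl
  have t1 := (abs_le.1 (mb hA bb)).2
  have t2 := (abs_le.1 (mb hD cc)).2
  have t3 := (abs_le.1 (mb hX (mb b1 c1))).2
  have t4 := (abs_le.1 (mb b1 h1)).2
  have t5 := (abs_le.1 (mb c1 h2)).2
  have hp : |(b + c) ^ 2| ≤ 2 * (b ^ 2 + c ^ 2) := by
    rw [abs_of_nonneg (sq_nonneg _)]; nlinarith [sq_nonneg (b - c)]
  have hq : |(b - c) ^ 2| ≤ 2 * (b ^ 2 + c ^ 2) := by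
    rw [abs_of_nonneg (sq_nonneg _)]; nlinarith [sq_nonneg (b + c)]
  have hr : |(b + c) * (b - c)| ≤ b ^ 2 + c ^ 2 := by
    rw [abs_le]; constructor <;> nlinarith [sq_nonneg b, sq_nonneg c]
  have t6 := (abs_le.1 (mb h3 hp)).1
  have t7 := (abs_le.1 (mb h4 hr)).1
  have t8 := (abs_le.1 (mb h5 hq)).1
  linarith

theorem conv1 {M q w : ℝ} : 8 * (48 * (2 * M ^ 2) ^ 2 * q * w) = 1536 * (M ^ 4 * (q * w)) := by
  ring

theorem conv2 {M k r w : ℝ} : 16 * (32 * (2 * M ^ 2) ^ 2 * k ^ 2 * r * w) =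
    2048 * (M ^ 4 * (k ^ 2 * r * w)) := by ring

theorem conv3 {M T w m : ℝ} (hM : 1 ≤ M) (hm : m ≤ 2048) (hT : 0 ≤ T)
    (hw : 0 ≤ w) : m * M ^ 2 * T * w ≤ 2048 * (M ^ 4 * (T * w)) := by
  have M24 : M ^ 2 ≤ M ^ 4 := pow_le_pow_right₀ hM (by norm_num)
  have n : 0 ≤ T * w := mul_nonneg hT hw
  calc m * M ^ 2 * T * w = m * (M ^ 2 * (T * w)) := by ring
    _ ≤ 2048 * (M ^ 2 * (T * w)) :=
      mul_le_mul_of_nonneg_right hm (mul_nonneg (sq_nonneg M) n)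
    _ ≤ 2048 * (M ^ 4 * (T * w)) :=
      mul_le_mul_of_nonneg_left (mul_le_mul_of_nonneg_right M24 n) (by norm_num)

/-- **The quantum terms.** -/
theorem qlow {sx sy sxy DX DY lx lm ly f g nn ν K E r s M Z Y : ℝ} (hM : 1 ≤ M) (K0 : 0 ≤ K)
    (E0 : 0 ≤ E) (r0 : 0 ≤ r) (hs0 : 0 ≤ s) (Z0 : 0 ≤ Z) (Y0 : 0 ≤ Y)
    (hA : |sx + sy + 2 * sxy - 4 * nn * ν ^ 2| ≤ 48 * (2 * M ^ 2) ^ 2 * (K ^ 2 + K * E +
      E ^ 2 * s))
    (hD : |sx + sy - 2 * sxy| ≤ 48 * (2 * M ^ 2) ^ 2 * (K ^ 2 + K * E + E ^ 2 * s))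
    (hX : |sx - sy| ≤ 32 * (2 * M ^ 2) ^ 2 * (K + E) ^ 2 * r)
    (h1 : |DX + DY| ≤ 8 * M ^ 2 * ((K + E) * Z + E * r * Y))
    (h2 : |DX - DY| ≤ 24 * M ^ 2 * (K * Z + E * r * Z + E * Y))
    (h3 : |lx| ≤ 44 * M ^ 2 * (K + E)) (h4 : |lm| ≤ 44 * M ^ 2 * (K + E))
    (h5 : |ly| ≤ 44 * M ^ 2 * (K + E)) :
    -(32 * nn * ν ^ 2 * ((f + g) / 2) ^ 2) - 2048 * (M ^ 4 *
      ((K ^ 2 + K * E + E ^ 2 * s + K + E) * (((f + g) / 2) ^ 2 + ((f - g) / 2) ^ 2)) +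
        M ^ 4 * ((K + E) ^ 2 * r * (|(f + g) / 2| * |(f - g) / 2|)) +
        M ^ 4 * (((K + E) * Z + E * r * Y) * |(f + g) / 2|) +
        M ^ 4 * ((K * Z + E * r * Z + E * Y) * |(f - g) / 2|)) ≤
    -(8 * (sx * f ^ 2 + 2 * (sxy * (f * g)) + sy * g ^ 2)) - 8 * (f * DX + g * DY) +
      2 * (lx * f ^ 2 + 2 * (lm * (f * g)) + ly * g ^ 2) := by
  obtain ⟨b, hb⟩ : ∃ b, b = (f + g) / 2 := ⟨_, rfl⟩
  obtain ⟨c, hc⟩ : ∃ c, c = (f - g) / 2 := ⟨_, rfl⟩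
  have hf : f = b + c := by rw [hb, hc]; ring
  have hg : g = b - c := by rw [hb, hc]; ring
  have key := qlow0 (b := b) (c := c) hA hD hX h1 h2 h3 h4 h5
  rw [← hb, ← hc, hf, hg]
  refine le_trans ?_ key
  have KE : 0 ≤ K + E := by linarith
  have w0 : 0 ≤ b ^ 2 + c ^ 2 := by positivity
  have q0 : 0 ≤ K ^ 2 + K * E + E ^ 2 * s := by positivity
  have T1 : 0 ≤ (K + E) * Z + E * r * Y := by positivity
  have T2 : 0 ≤ K * Z + E * r * Z + E * Y := by positivity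
  have g1 := conv1 (M := M) (q := K ^ 2 + K * E + E ^ 2 * s) (w := b ^ 2 + c ^ 2)
  have g2 := conv2 (M := M) (k := K + E) (r := r) (w := |b| * |c|)
  have g3 := conv3 hM (by norm_num : (64 : ℝ) ≤ 2048) T1 (abs_nonneg b)
  have g4 := conv3 hM (by norm_num : (192 : ℝ) ≤ 2048) T2 (abs_nonneg c)
  have g5 := conv3 hM (by norm_num : (528 : ℝ) ≤ 2048) KE w0
  have n1 : 0 ≤ M ^ 4 * ((K ^ 2 + K * E + E ^ 2 * s) * (b ^ 2 + c ^ 2)) :=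
    mul_nonneg (by positivity) (mul_nonneg q0 w0)
  have e2 : M ^ 4 * ((K ^ 2 + K * E + E ^ 2 * s + K + E) * (b ^ 2 + c ^ 2)) =
      M ^ 4 * ((K ^ 2 + K * E + E ^ 2 * s) * (b ^ 2 + c ^ 2)) +
      M ^ 4 * ((K + E) * (b ^ 2 + c ^ 2)) := by ring
  rw [e2]
  linarith

end Vale.Agent.P088.R2.H406.C
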