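import Vale.Agent.P088.R2.H406.C.Abs2
import Mathlib.Tactic.FieldSimp

/-!
# P088, zone C: elementary inequalities of the pointwise rows
-/

namespace Vale.Agent.P088.R2.H406.C

theorem young {d : ℝ} (hd : 0 < d) (x y : ℝ) : 2 * x * y ≤ d * x ^ 2 + y ^ 2 / d := by
  have h : 0 ≤ (d * x - y) ^ 2 / d := by positivity
  have e : (d * x - y) ^ 2 / d = d * x ^ 2 - 2 * x * y + y ^ 2 / d := by
    field_simp
    ring
  rw [e] at h
  linarith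

section Q

variable {R δ lam K E s r τ Y b c a c₀ : ℝ}

theorem q1 (R0 : 0 < R) (hδ : 0 < δ) (K0 : 0 < K) (KE : K ≤ a * E) (KE' : K ≤ E)
    (hsc : s ≤ 4 * c₀ ^ 2) (Ra : R * a ≤ δ) (Rc : 4 * (R * c₀ ^ 2) ≤ δ)
    (K2 : 2 * R ≤ δ * K) (E0 : 0 < E) :
    R * ((K ^ 2 + K * E + E ^ 2 * s + K + E) * b ^ 2) ≤ 4 * δ * (E ^ 2 * b ^ 2) := by
  have B0 : 0 ≤ b ^ 2 := sq_nonneg b
  have EB : 0 ≤ E ^ 2 := by positivity
  have u1 : R * K ^ 2 ≤ δ * E ^ 2 := by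
    have h1 : K ^ 2 ≤ a * E * E := by nlinarith
    calc R * K ^ 2 ≤ R * (a * E * E) := mul_le_mul_of_nonneg_left h1 R0.le
      _ = R * a * E ^ 2 := by ring
      _ ≤ δ * E ^ 2 := mul_le_mul_of_nonneg_right Ra EB
  have u2 : R * (K * E) ≤ δ * E ^ 2 := by
    calc R * (K * E) ≤ R * (a * E * E) :=
        mul_le_mul_of_nonneg_left (mul_le_mul_of_nonneg_right KE E0.le) R0.le
      _ = R * a * E ^ 2 := by ring
      _ ≤ δ * E ^ 2 := mul_le_mul_of_nonneg_right Ra EB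
  have u3 : R * (E ^ 2 * s) ≤ δ * E ^ 2 := by
    calc R * (E ^ 2 * s) = R * s * E ^ 2 := by ring
      _ ≤ R * (4 * c₀ ^ 2) * E ^ 2 :=
        mul_le_mul_of_nonneg_right (mul_le_mul_of_nonneg_left hsc R0.le) EB
      _ = 4 * (R * c₀ ^ 2) * E ^ 2 := by ring
      _ ≤ δ * E ^ 2 := mul_le_mul_of_nonneg_right Rc EB
  have u4 : R * (K + E) ≤ δ * E ^ 2 := by
    have h1 : 2 * R ≤ δ * E := K2.trans (mul_le_mul_of_nonneg_left KE' hδ.le)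
    nlinarith
  have h : R * (K ^ 2 + K * E + E ^ 2 * s + K + E) ≤ 4 * δ * E ^ 2 := by linarith
  calc R * ((K ^ 2 + K * E + E ^ 2 * s + K + E) * b ^ 2) =
      R * (K ^ 2 + K * E + E ^ 2 * s + K + E) * b ^ 2 := by ring
    _ ≤ 4 * δ * E ^ 2 * b ^ 2 := mul_le_mul_of_nonneg_right h B0
    _ = _ := by ring

theorem q2 (R0 : 0 < R) (K1 : 1 ≤ K) (KE' : K ≤ E) (s0 : 0 ≤ s) (E0 : 0 < E) :
    R * ((K ^ 2 + K * E + E ^ 2 * s + K + E) * c ^ 2) ≤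
      4 * R * (E * (K + E * s) * c ^ 2) := by
  have h1 : K ^ 2 ≤ K * E := by nlinarith
  have h2 : K ≤ K * E := by nlinarith
  have h3 : E ≤ K * E := by nlinarith
  have h4 : 0 ≤ E ^ 2 * s := by positivity
  have h5 : K ^ 2 + K * E + E ^ 2 * s + K + E ≤ 4 * (E * (K + E * s)) := by linarith
  calc R * ((K ^ 2 + K * E + E ^ 2 * s + K + E) * c ^ 2) ≤
      R * (4 * (E * (K + E * s)) * c ^ 2) :=
        mul_le_mul_of_nonneg_left (mul_le_mul_of_nonneg_right h5 (sq_nonneg c)) R0.le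
    _ = 4 * R * (E * (K + E * s) * c ^ 2) := by ring

theorem q3 (R0 : 0 < R) (hδ : 0 < δ) (K0 : 0 < K) (KE' : K ≤ E) (r0 : 0 ≤ r)
    (hs : s = r ^ 2) (b0 : 0 ≤ b) (c0 : 0 ≤ c) (E0 : 0 < E) :
    R * ((K + E) ^ 2 * r * (b * c)) ≤ δ * (E ^ 2 * b ^ 2) +
      4 * R ^ 2 / δ * (E * (K + E * s) * c ^ 2) := by
  have h1 : (K + E) ^ 2 ≤ 4 * E ^ 2 := by nlinarith
  have h2 := young hδ (E * b) (2 * R * E * r * c)
  have h3 : R * ((K + E) ^ 2 * r * (b * c)) ≤ 2 * (E * b) * (2 * R * E * r * c) := by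
    calc R * ((K + E) ^ 2 * r * (b * c)) = (K + E) ^ 2 * (R * r * b * c) := by ring
      _ ≤ 4 * E ^ 2 * (R * r * b * c) := mul_le_mul_of_nonneg_right h1 (by positivity)
      _ = 2 * (E * b) * (2 * R * E * r * c) := by ring
  have h4 : (2 * R * E * r * c) ^ 2 / δ = 4 * R ^ 2 / δ * (E * (E * s) * c ^ 2) := by
    rw [hs]; ring
  have h5 : 4 * R ^ 2 / δ * (E * (E * s) * c ^ 2) ≤
      4 * R ^ 2 / δ * (E * (K + E * s) * c ^ 2) := by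
    refine mul_le_mul_of_nonneg_left (mul_le_mul_of_nonneg_right
      (mul_le_mul_of_nonneg_left (by linarith) E0.le) (sq_nonneg c)) (by positivity)
  have h6 : δ * (E * b) ^ 2 = δ * (E ^ 2 * b ^ 2) := by ring
  rw [h4, h6] at h2
  linarith

theorem q4 (R0 : 0 < R) (hδ : 0 < δ) (K0 : 0 < K) (KE' : K ≤ E)
    (K3 : 4 * R ^ 2 ≤ δ ^ 2 * K) (τ0 : 0 ≤ τ) (b0 : 0 ≤ b) :
    R * ((K + E) * τ * b) ≤ δ * K / 4 * τ ^ 2 + δ * (E ^ 2 * b ^ 2) := by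
  have dK : 0 < δ * K / 4 := by positivity
  have h2 := young dK τ (R * E * b)
  have h3 : R * ((K + E) * τ * b) ≤ 2 * τ * (R * E * b) := by
    calc R * ((K + E) * τ * b) = (K + E) * (R * τ * b) := by ring
      _ ≤ 2 * E * (R * τ * b) := mul_le_mul_of_nonneg_right (by linarith) (by positivity)
      _ = 2 * τ * (R * E * b) := by ring
  have h4 : (R * E * b) ^ 2 / (δ * K / 4) ≤ δ * (E ^ 2 * b ^ 2) := by
    rw [div_le_iff₀ dK]
    have h5 : (R * E * b) ^ 2 = 4 * R ^ 2 * (E ^ 2 * b ^ 2) / 4 := by ring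
    have h6 : δ * (E ^ 2 * b ^ 2) * (δ * K / 4) = δ ^ 2 * K * (E ^ 2 * b ^ 2) / 4 := by ring
    rw [h5, h6]
    have := mul_le_mul_of_nonneg_right K3 (by positivity : 0 ≤ E ^ 2 * b ^ 2)
    linarith
  linarith

theorem q5 (hl : 0 < lam) (hs : s = r ^ 2) :
    R * (E * r * Y * b) ≤ lam / 2 * Y ^ 2 + R ^ 2 * (E ^ 2 / lam * (s * b ^ 2)) := by
  have l2 : 0 < lam / 2 := by positivity
  have h2 := young l2 Y (R * E * r * b / 2)
  have h4 : (R * E * r * b / 2) ^ 2 / (lam / 2) =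
      R ^ 2 * (E ^ 2 / lam * (s * b ^ 2)) / 2 := by
    rw [hs]; field_simp
  have h5 : 0 ≤ R ^ 2 * (E ^ 2 / lam * (s * b ^ 2)) := by rw [hs]; positivity
  have h6 : 2 * Y * (R * E * r * b / 2) = R * (E * r * Y * b) := by ring
  rw [h4, h6] at h2
  linarith

theorem q6 (hδ : 0 < δ) (K0 : 0 < K) (E1 : 1 ≤ E) (s0 : 0 ≤ s) :
    R * (K * τ * c) ≤ δ * K / 4 * τ ^ 2 + R ^ 2 / δ * (E * (K + E * s) * c ^ 2) := by
  have dK : 0 < δ * K / 4 := by positivity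
  have h2 := young dK τ (R * K * c / 2)
  have h4 : (R * K * c / 2) ^ 2 / (δ * K / 4) = R ^ 2 / δ * (K * c ^ 2) := by
    field_simp; ring
  have h5 : R ^ 2 / δ * (K * c ^ 2) ≤ R ^ 2 / δ * (E * (K + E * s) * c ^ 2) := by
    refine mul_le_mul_of_nonneg_left (mul_le_mul_of_nonneg_right ?_ (sq_nonneg c))
      (by positivity)
    have : 0 ≤ E * (E * s) := by positivity
    nlinarith
  have h6 : 2 * τ * (R * K * c / 2) = R * (K * τ * c) := by ring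
  rw [h4, h6] at h2
  linarith

theorem q7 (hδ : 0 < δ) (K1 : 1 ≤ K) (E0 : 0 < E) (s0 : 0 ≤ s) (hs : s = r ^ 2) :
    R * (E * r * τ * c) ≤ δ * K / 4 * τ ^ 2 +
      R ^ 2 / δ * (E * (K + E * s) * c ^ 2) := by
  have K0 : 0 < K := by linarith
  have dK : 0 < δ * K / 4 := by positivity
  have h2 := young dK τ (R * E * r * c / 2)
  have h4 : (R * E * r * c / 2) ^ 2 / (δ * K / 4) = R ^ 2 / δ * (E ^ 2 * s / K * c ^ 2) := by
    rw [hs]; field_simp; ring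
  have h5 : R ^ 2 / δ * (E ^ 2 * s / K * c ^ 2) ≤
      R ^ 2 / δ * (E * (K + E * s) * c ^ 2) := by
    refine mul_le_mul_of_nonneg_left (mul_le_mul_of_nonneg_right ?_ (sq_nonneg c))
      (by positivity)
    have h7 : 0 ≤ E ^ 2 * s := by positivity
    have h8 : 0 ≤ E * K := by positivity
    calc E ^ 2 * s / K ≤ E ^ 2 * s := div_le_self h7 K1
      _ ≤ E * (K + E * s) := by nlinarith
  have h6 : 2 * τ * (R * E * r * c / 2) = R * (E * r * τ * c) := by ring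
  rw [h4, h6] at h2
  linarith

theorem q8 (hl : 0 < lam) :
    R * (E * Y * c) ≤ lam / 2 * Y ^ 2 + R ^ 2 * (E ^ 2 / lam * c ^ 2) := by
  have l2 : 0 < lam / 2 := by positivity
  have h2 := young l2 Y (R * E * c / 2)
  have h4 : (R * E * c / 2) ^ 2 / (lam / 2) = R ^ 2 * (E ^ 2 / lam * c ^ 2) / 2 := by
    field_simp
  have h5 : 0 ≤ R ^ 2 * (E ^ 2 / lam * c ^ 2) := by positivity
  have h6 : 2 * Y * (R * E * c / 2) = R * (E * Y * c) := by ring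
  rw [h4, h6] at h2
  linarith

/-- The first and second order terms, `K ≤ a E`. -/
theorem absQ (hR : 1 ≤ R) (hδ : 0 < δ) (hl : 0 < lam)
    (K1 : 1 ≤ K) (KE : K ≤ a * E) (a1 : a ≤ 1) (r0 : 0 ≤ r) (hs : s = r ^ 2)
    (hsc : s ≤ 4 * c₀ ^ 2) (Ra : R * a ≤ δ) (Rc : 4 * (R * c₀ ^ 2) ≤ δ)
    (K2 : 2 * R ≤ δ * K) (K3 : 4 * R ^ 2 ≤ δ ^ 2 * K) (τ0 : 0 ≤ τ)
    (b0 : 0 ≤ b) (c0 : 0 ≤ c) (E0 : 0 < E) :
    R * ((K ^ 2 + K * E + E ^ 2 * s + K + E) * (b ^ 2 + c ^ 2) + (K + E) ^ 2 * r * (b * c) +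
      ((K + E) * τ + E * r * Y) * b + (K * τ + E * r * τ + E * Y) * c) ≤
    6 * δ * (E ^ 2 * b ^ 2) + lam * Y ^ 2 + δ * (K * τ ^ 2) +
      (4 * R + 6 * R ^ 2 / δ) * (E * (K + E * s) * c ^ 2) +
      R ^ 2 * (E ^ 2 / lam * (c ^ 2 + s * b ^ 2)) := by
  have K0 : 0 < K := by linarith
  have R0 : 0 < R := by linarith
  have s0 : 0 ≤ s := by rw [hs]; positivity
  have KE' : K ≤ E := KE.trans (mul_le_of_le_one_left E0.le a1)
  have E1 : 1 ≤ E := by linarith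
  have v1 := q1 (b := b) R0 hδ K0 KE KE' hsc Ra Rc K2 E0
  have v2 := q2 (c := c) R0 K1 KE' s0 E0
  have v3 := q3 R0 hδ K0 KE' r0 hs b0 c0 E0
  have v4 := q4 R0 hδ K0 KE' K3 τ0 b0
  have v5 := q5 (R := R) (E := E) (Y := Y) (b := b) hl hs
  have v6 := q6 (R := R) (τ := τ) (c := c) hδ K0 E1 s0
  have v7 := q7 (R := R) (τ := τ) (c := c) hδ K1 E0 s0 hs
  have v8 := q8 (R := R) (E := E) (Y := Y) (c := c) hl
  have e1 : R * ((K ^ 2 + K * E + E ^ 2 * s + K + E) * (b ^ 2 + c ^ 2) +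
      (K + E) ^ 2 * r * (b * c) + ((K + E) * τ + E * r * Y) * b +
      (K * τ + E * r * τ + E * Y) * c) =
      R * ((K ^ 2 + K * E + E ^ 2 * s + K + E) * b ^ 2) +
      R * ((K ^ 2 + K * E + E ^ 2 * s + K + E) * c ^ 2) +
      R * ((K + E) ^ 2 * r * (b * c)) + R * ((K + E) * τ * b) + R * (E * r * Y * b) +
      R * (K * τ * c) + R * (E * r * τ * c) + R * (E * Y * c) := by ring
  have e2 : (4 * R + 6 * R ^ 2 / δ) * (E * (K + E * s) * c ^ 2) =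
      4 * R * (E * (K + E * s) * c ^ 2) + 4 * R ^ 2 / δ * (E * (K + E * s) * c ^ 2) +
      R ^ 2 / δ * (E * (K + E * s) * c ^ 2) + R ^ 2 / δ * (E * (K + E * s) * c ^ 2) := by
    ring
  have e3 : R ^ 2 * (E ^ 2 / lam * (c ^ 2 + s * b ^ 2)) = R ^ 2 * (E ^ 2 / lam * c ^ 2) +
      R ^ 2 * (E ^ 2 / lam * (s * b ^ 2)) := by ring
  have e4 : 0 ≤ δ * K / 4 * τ ^ 2 := by positivity
  have e5 : δ * (K * τ ^ 2) = 4 * (δ * K / 4 * τ ^ 2) := by ring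
  have e6 : lam * Y ^ 2 = 2 * (lam / 2 * Y ^ 2) := by ring
  have e7 : 6 * δ * (E ^ 2 * b ^ 2) = 6 * (δ * (E ^ 2 * b ^ 2)) := by ring
  have e8 : 4 * δ * (E ^ 2 * b ^ 2) = 4 * (δ * (E ^ 2 * b ^ 2)) := by ring
  rw [e8] at v1
  rw [e1, e2, e3, e5, e6, e7]
  linarith

end Q

/-- The first and second order terms, no relation between `K` and `E`. -/
theorem absP {R K E s r τ Y b c : ℝ} (hR : 1 ≤ R) (K0 : 0 < K) (E0 : 0 ≤ E) (r0 : 0 ≤ r)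
    (r1 : r ≤ 1) (hs : s = r ^ 2) (b0 : 0 ≤ b) (c0 : 0 ≤ c) :
    R * ((K ^ 2 + K * E + E ^ 2 * s + K + E) * (b ^ 2 + c ^ 2) + (K + E) ^ 2 * r * (b * c) +
      ((K + E) * τ + E * r * Y) * b + (K * τ + E * r * τ + E * Y) * c) ≤
    E * Y ^ 2 + K * τ ^ 2 +
      8 * R ^ 2 * ((E + E ^ 2 + K + K ^ 2 + E ^ 2 / K) * (b ^ 2 + c ^ 2)) := by
  have R0 : 0 < R := by linarith
  have s0 : 0 ≤ s := by rw [hs]; positivity
  have s1 : s ≤ 1 := by rw [hs]; exact pow_le_one₀ r0 r1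
  have B0 : 0 ≤ b ^ 2 := sq_nonneg b
  have C0 : 0 ≤ c ^ 2 := sq_nonneg c
  have RR : R ≤ R ^ 2 := by nlinarith
  have w0 : 0 ≤ b ^ 2 + c ^ 2 := by positivity
  have u1 : R * ((K ^ 2 + K * E + E ^ 2 * s + K + E) * (b ^ 2 + c ^ 2)) ≤
      R ^ 2 * ((2 * K ^ 2 + 2 * E ^ 2 + K + E) * (b ^ 2 + c ^ 2)) := by
    have h1 : E ^ 2 * s ≤ E ^ 2 := mul_le_of_le_one_right (sq_nonneg E) s1
    have h2 : K ^ 2 + K * E + E ^ 2 * s + K + E ≤ 2 * K ^ 2 + 2 * E ^ 2 + K + E := by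
      nlinarith [sq_nonneg (K - E)]
    have h3 : 0 ≤ K ^ 2 + K * E + E ^ 2 * s + K + E := by positivity
    calc R * ((K ^ 2 + K * E + E ^ 2 * s + K + E) * (b ^ 2 + c ^ 2)) ≤
        R ^ 2 * ((K ^ 2 + K * E + E ^ 2 * s + K + E) * (b ^ 2 + c ^ 2)) :=
          mul_le_mul_of_nonneg_right RR (mul_nonneg h3 w0)
      _ ≤ _ := mul_le_mul_of_nonneg_left (mul_le_mul_of_nonneg_right h2 w0) (sq_nonneg R)
  have u2 : R * ((K + E) ^ 2 * r * (b * c)) ≤ R ^ 2 * ((K ^ 2 + E ^ 2) * (b ^ 2 + c ^ 2)) := by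
    have h1 : (K + E) ^ 2 * r ≤ 2 * (K ^ 2 + E ^ 2) := by
      calc (K + E) ^ 2 * r ≤ (K + E) ^ 2 := mul_le_of_le_one_right (sq_nonneg _) r1
        _ ≤ 2 * (K ^ 2 + E ^ 2) := by nlinarith [sq_nonneg (K - E)]
    have h2 : b * c ≤ (b ^ 2 + c ^ 2) / 2 := by nlinarith [sq_nonneg (b - c)]
    calc R * ((K + E) ^ 2 * r * (b * c)) ≤ R * (2 * (K ^ 2 + E ^ 2) * ((b ^ 2 + c ^ 2) / 2)) :=
        mul_le_mul_of_nonneg_left (mul_le_mul h1 h2 (by positivity) (by positivity)) R0.le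
      _ = R * ((K ^ 2 + E ^ 2) * (b ^ 2 + c ^ 2)) := by ring
      _ ≤ _ := mul_le_mul_of_nonneg_right RR (mul_nonneg (by positivity) w0)
  have dK : 0 < K / 4 := by positivity
  have v4 : R * (K * τ * b) ≤ K / 4 * τ ^ 2 + R ^ 2 * (K * b ^ 2) := by
    have h2 := young dK τ (R * K * b / 2)
    have h4 : (R * K * b / 2) ^ 2 / (K / 4) = R ^ 2 * (K * b ^ 2) := by field_simp; ring
    have h6 : 2 * τ * (R * K * b / 2) = R * (K * τ * b) := by ring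
    rw [h4, h6] at h2
    linarith
  have v4' : R * (E * τ * b) ≤ K / 4 * τ ^ 2 + R ^ 2 * (E ^ 2 / K * b ^ 2) := by
    have h2 := young dK τ (R * E * b / 2)
    have h4 : (R * E * b / 2) ^ 2 / (K / 4) = R ^ 2 * (E ^ 2 / K * b ^ 2) := by
      field_simp; ring
    have h6 : 2 * τ * (R * E * b / 2) = R * (E * τ * b) := by ring
    rw [h4, h6] at h2
    linarith
  have v5 : R * (E * r * Y * b) ≤ E * Y ^ 2 / 2 + R ^ 2 * (E * b ^ 2) := by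
    have h2 := young (d := 1 / 2) (by norm_num) Y (R * r * b / 2)
    have h4 : (R * r * b / 2) ^ 2 / (1 / 2) ≤ R ^ 2 * b ^ 2 := by
      have : (R * r * b / 2) ^ 2 / (1 / 2) = R ^ 2 * b ^ 2 * (r ^ 2 / 2) := by ring
      rw [this]
      refine mul_le_of_le_one_right (by positivity) ?_
      rw [← hs]; linarith
    have h3 := mul_le_mul_of_nonneg_left (h2.trans (add_le_add_right h4 _)) E0
    nlinarith
  have v6 : R * (K * τ * c) ≤ K / 4 * τ ^ 2 + R ^ 2 * (K * c ^ 2) := by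
    have h2 := young dK τ (R * K * c / 2)
    have h4 : (R * K * c / 2) ^ 2 / (K / 4) = R ^ 2 * (K * c ^ 2) := by field_simp; ring
    have h6 : 2 * τ * (R * K * c / 2) = R * (K * τ * c) := by ring
    rw [h4, h6] at h2
    linarith
  have v7 : R * (E * r * τ * c) ≤ K / 4 * τ ^ 2 + R ^ 2 * (E ^ 2 / K * c ^ 2) := by
    have h2 := young dK τ (R * E * r * c / 2)
    have h4 : (R * E * r * c / 2) ^ 2 / (K / 4) ≤ R ^ 2 * (E ^ 2 / K * c ^ 2) := by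
      have : (R * E * r * c / 2) ^ 2 / (K / 4) = R ^ 2 * (E ^ 2 / K * c ^ 2) * s := by
        rw [hs]; field_simp; ring
      rw [this]
      exact mul_le_of_le_one_right (by positivity) s1
    have h6 : 2 * τ * (R * E * r * c / 2) = R * (E * r * τ * c) := by ring
    rw [h6] at h2
    linarith
  have v8 : R * (E * Y * c) ≤ E * Y ^ 2 / 2 + R ^ 2 * (E * c ^ 2) := by
    have h2 := young (d := 1 / 2) (by norm_num) Y (R * c / 2)
    have h4 : (R * c / 2) ^ 2 / (1 / 2) ≤ R ^ 2 * c ^ 2 := by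
      have : (R * c / 2) ^ 2 / (1 / 2) = R ^ 2 * c ^ 2 / 2 := by ring
      rw [this]
      have : 0 ≤ R ^ 2 * c ^ 2 := by positivity
      linarith
    have h3 := mul_le_mul_of_nonneg_left (h2.trans (add_le_add_right h4 _)) E0
    nlinarith
  have e1 : R * ((K ^ 2 + K * E + E ^ 2 * s + K + E) * (b ^ 2 + c ^ 2) +
      (K + E) ^ 2 * r * (b * c) + ((K + E) * τ + E * r * Y) * b +
      (K * τ + E * r * τ + E * Y) * c) =
      R * ((K ^ 2 + K * E + E ^ 2 * s + K + E) * (b ^ 2 + c ^ 2)) +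
      R * ((K + E) ^ 2 * r * (b * c)) + R * (K * τ * b) + R * (E * τ * b) +
      R * (E * r * Y * b) + R * (K * τ * c) + R * (E * r * τ * c) + R * (E * Y * c) := by ring
  rw [e1]
  have n1 : 0 ≤ R ^ 2 * (E * (b ^ 2 + c ^ 2)) := by positivity
  have n2 : 0 ≤ R ^ 2 * (E ^ 2 * (b ^ 2 + c ^ 2)) := by positivity
  have n3 : 0 ≤ R ^ 2 * (K * (b ^ 2 + c ^ 2)) := by positivity
  have n4 : 0 ≤ R ^ 2 * (K ^ 2 * (b ^ 2 + c ^ 2)) := by positivity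
  have n5 : 0 ≤ R ^ 2 * (E ^ 2 / K * (b ^ 2 + c ^ 2)) := by positivity
  linarith

/-- The Hessian. -/
theorem absH {K E s M η τ om Y r x2 x1 x0 x3 : ℝ} (E0 : 0 ≤ E) (M1 : 1 ≤ M)
    (hη : 0 < η) (hs : s = r ^ 2) (hom : |om| ≤ r * Y)
    (h2 : |x2| ≤ 2 * (E * s)) (h1 : |x1| ≤ 2 * M * E) (h0 : |x0| ≤ M * E)
    (h3 : E * (1 - 2 * M * s) ≤ 2 * x3) (hE : E * s * (2 + 16 * M ^ 2 / η) ≤ K / 2)
    (hm : 6 * M * s ≤ η) :
    4 * (K * τ ^ 2) + 8 * (1 - 2 * η) * (E * Y ^ 2) ≤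
      8 * ((K + x2) * τ ^ 2 + 4 * x1 * (τ * om) + 4 * x0 * om ^ 2 + 2 * x3 * Y ^ 2) := by
  have T0 : 0 ≤ τ ^ 2 := sq_nonneg τ
  have Y2 : 0 ≤ Y ^ 2 := sq_nonneg Y
  have s0 : 0 ≤ s := by rw [hs]; positivity
  have om2 : om ^ 2 ≤ s * Y ^ 2 := by
    have := ms hom
    rw [mul_pow, ← hs] at this
    exact this
  have a2 : -(2 * (E * s)) * τ ^ 2 ≤ x2 * τ ^ 2 :=
    mul_le_mul_of_nonneg_right (abs_le.1 h2).1 T0
  have a0 : -(M * E * (s * Y ^ 2)) ≤ x0 * om ^ 2 := by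
    have := (abs_le.1 (mb h0 (abs_of_nonneg (sq_nonneg om)).le)).1
    have h : M * E * om ^ 2 ≤ M * E * (s * Y ^ 2) :=
      mul_le_mul_of_nonneg_left om2 (mul_nonneg (by linarith) E0)
    linarith
  have a3 : E * (1 - 2 * M * s) * Y ^ 2 ≤ 2 * x3 * Y ^ 2 := mul_le_mul_of_nonneg_right h3 Y2
  have a1 : -(η * (E * Y ^ 2) + 16 * M ^ 2 / η * (E * s) * τ ^ 2) ≤ 4 * x1 * (τ * om) := by
    have h4 : |x1 * (τ * om)| ≤ 2 * M * E * (|τ| * |om|) := mb h1 (by rw [abs_mul])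
    have h5 := (abs_le.1 h4).1
    have h6 := young hη |om| (4 * M * |τ|)
    have h7 := young hη (|Y|) (4 * M * (|r| * |τ|))
    have h8 : |om| ≤ |r| * |Y| := hom.trans (by rw [← abs_mul]; exact le_abs_self _)
    have h9 : 2 * |Y| * (4 * M * (|r| * |τ|)) = 8 * M * (|r| * |Y| * |τ|) := by ring
    have h10 : |om| * |τ| ≤ |r| * |Y| * |τ| := mul_le_mul_of_nonneg_right h8 (abs_nonneg _)
    have h11 : (4 * M * (|r| * |τ|)) ^ 2 / η = 16 * M ^ 2 / η * (s * τ ^ 2) := by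
      rw [hs, ← sq_abs r, ← sq_abs τ]; field_simp; ring
    rw [h9, h11, sq_abs] at h7
    have h12 : 8 * M * (|om| * |τ|) ≤ η * Y ^ 2 + 16 * M ^ 2 / η * (s * τ ^ 2) := by
      have := mul_le_mul_of_nonneg_left h10 (by linarith : 0 ≤ 8 * M)
      linarith
    have h13 := mul_le_mul_of_nonneg_left h12 E0
    nlinarith
  have b1 := mul_le_mul_of_nonneg_right hE T0
  have b2 : 6 * M * s * (E * Y ^ 2) ≤ η * (E * Y ^ 2) :=
    mul_le_mul_of_nonneg_right hm (mul_nonneg E0 Y2)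
  nlinarith

/-- The end of `(Q0)`. -/
theorem finQ {R δ lam K E s T Y2 B D cn nn q θ X : ℝ} (R0 : 0 < R) (hδ : 0 < δ) (hl : 0 < lam)
    (K0 : 0 < K) (E0 : 0 < E) (s0 : 0 ≤ s) (B0 : 0 ≤ B) (D0 : 0 ≤ D) (n1 : 1 ≤ nn)
    (θ0 : 0 < θ) (θ1 : θ ≤ 1) (θ2 : θ ≤ δ / 6)
    (key : R * X ≤ 6 * δ * (E ^ 2 * B) + lam * Y2 + δ * (K * T) +
      (4 * R + 6 * R ^ 2 / δ) * (E * (K + E * s) * D) + R ^ 2 * (E ^ 2 / lam * (D + s * B)))
    (low : -(32 * nn * cn * B) - R * X ≤ q) (hcn : cn ≤ (1 + θ) ^ 2 * E ^ 2) :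
    -(32 * nn * (1 + δ) * E ^ 2 * B) - lam * Y2 - δ * K * T -
      (4 * R + 6 * R ^ 2 / δ + R ^ 2) * E * (K + E * s) * D -
      (4 * R + 6 * R ^ 2 / δ + R ^ 2) * E ^ 2 / lam * (D + s * B) ≤ q := by
  have e1 : (1 + θ) ^ 2 ≤ 1 + δ / 2 := by nlinarith
  have e2 : cn ≤ (1 + δ / 2) * E ^ 2 :=
    hcn.trans (mul_le_mul_of_nonneg_right e1 (sq_nonneg _))
  have EB : 0 ≤ E ^ 2 * B := by positivity
  have e3 : 32 * nn * cn * B ≤ 32 * nn * ((1 + δ / 2) * E ^ 2) * B :=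
    mul_le_mul_of_nonneg_right (mul_le_mul_of_nonneg_left e2 (by linarith)) B0
  have e4 : 6 * δ * (E ^ 2 * B) ≤ 16 * nn * δ * (E ^ 2 * B) := by
    have : 6 * δ ≤ 16 * nn * δ := by nlinarith
    exact mul_le_mul_of_nonneg_right this EB
  have e5 : 32 * nn * ((1 + δ / 2) * E ^ 2) * B + 16 * nn * δ * (E ^ 2 * B) =
      32 * nn * (1 + δ) * E ^ 2 * B := by ring
  have X1 : 0 ≤ E * (K + E * s) * D := by positivity
  have X2 : 0 ≤ E ^ 2 / lam * (D + s * B) := by positivity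
  have e6 : (4 * R + 6 * R ^ 2 / δ) * (E * (K + E * s) * D) ≤
      (4 * R + 6 * R ^ 2 / δ + R ^ 2) * E * (K + E * s) * D := by
    have : 0 ≤ R ^ 2 * (E * (K + E * s) * D) := mul_nonneg (sq_nonneg R) X1
    linarith
  have e7 : R ^ 2 * (E ^ 2 / lam * (D + s * B)) ≤
      (4 * R + 6 * R ^ 2 / δ + R ^ 2) * E ^ 2 / lam * (D + s * B) := by
    have h1 : 0 ≤ 4 * R + 6 * R ^ 2 / δ := by positivity
    have : 0 ≤ (4 * R + 6 * R ^ 2 / δ) * (E ^ 2 / lam * (D + s * B)) := mul_nonneg h1 X2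
    have e8 : (4 * R + 6 * R ^ 2 / δ + R ^ 2) * E ^ 2 / lam * (D + s * B) =
      (4 * R + 6 * R ^ 2 / δ) * (E ^ 2 / lam * (D + s * B)) +
      R ^ 2 * (E ^ 2 / lam * (D + s * B)) := by ring
    linarith
  have e9 : δ * (K * T) = δ * K * T := by ring
  linarith

/-- The end of `(PI)`. -/
theorem finI {C δ δ₁ K E s c T Y2 B D nn q h : ℝ} (hδ : 0 < δ) (hC : 0 < C)
    (hδ₁ : 0 < δ₁) (d1 : δ₁ ≤ δ / 2) (d2 : δ₁ ≤ 1) (K1 : 1 ≤ K) (E0 : 0 < E) (KE : K ≤ E)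
    (s0 : 0 ≤ s) (s1 : s ≤ 1) (B0 : 0 ≤ B) (D0 : 0 ≤ D) (T0 : 0 ≤ T) (Y0 : 0 ≤ Y2)
    (n1 : 1 ≤ nn) (hK : C ≤ 16 * δ * δ₁ * K) (c1 : c ≤ 1) (hc : E * s ≤ c * K)
    (low : -(32 * nn * (1 + δ₁) * E ^ 2 * B) - δ₁ * E * Y2 - δ₁ * K * T -
      C * E * (K + E * s) * D - C * E ^ 2 / (δ₁ * E) * (D + s * B) ≤ q)
    (hess : 4 * (K * T) + 8 * (1 - 2 * (δ / 4)) * (E * Y2) ≤ 8 * h) :
    8 * (1 - δ) * E * Y2 + K * T - 32 * nn * (1 + δ) * E ^ 2 * B -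
      (2 * C + C / δ₁) * E * K * D ≤ 8 * h + q := by
  have EY : 0 ≤ E * Y2 := mul_nonneg E0.le Y0
  have KT : 0 ≤ K * T := mul_nonneg (by linarith) T0
  have ED : 0 ≤ E * D := mul_nonneg E0.le D0
  have e1 : C * E ^ 2 / (δ₁ * E) * (D + s * B) = C / δ₁ * E * D + C / δ₁ * (E * s * B) := by
    field_simp
  have hKt : E * s ≤ K := hc.trans (mul_le_of_le_one_left (by linarith) c1)
  have e2 : C / δ₁ * (E * s * B) ≤ 16 * δ * E ^ 2 * B := by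
    have h1 : C / δ₁ ≤ 16 * δ * K := by
      rw [div_le_iff₀ hδ₁]; linarith
    have h2 : E * s ≤ E := mul_le_of_le_one_right E0.le s1
    have h3 : C / δ₁ * (E * s) ≤ 16 * δ * K * E :=
      mul_le_mul h1 h2 (by positivity) (by positivity)
    have h4 : 16 * δ * K * E ≤ 16 * δ * E * E :=
      mul_le_mul_of_nonneg_right (mul_le_mul_of_nonneg_left KE (by positivity)) E0.le
    have h5 := mul_le_mul_of_nonneg_right (h3.trans h4) B0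
    calc C / δ₁ * (E * s * B) = C / δ₁ * (E * s) * B := by ring
      _ ≤ 16 * δ * E * E * B := h5
      _ = _ := by ring
  have e3 : C * E * (K + E * s) * D ≤ 2 * C * E * K * D := by
    have : C * E * (K + E * s) ≤ 2 * C * E * K := by
      have := mul_le_mul_of_nonneg_left hKt (by positivity : 0 ≤ C * E)
      linarith
    exact mul_le_mul_of_nonneg_right this D0
  have e4 : C / δ₁ * E * D ≤ C / δ₁ * E * K * D := by
    have h1 : 0 ≤ C / δ₁ * E * D := by positivity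
    have := mul_le_mul_of_nonneg_left K1 h1
    linarith
  have e5 : 32 * nn * (1 + δ₁) * E ^ 2 * B + 16 * δ * E ^ 2 * B ≤
      32 * nn * (1 + δ) * E ^ 2 * B := by
    have h1 : 32 * nn * (1 + δ₁) + 16 * δ ≤ 32 * nn * (1 + δ) := by nlinarith
    have h2 : 0 ≤ E ^ 2 * B := by positivity
    have := mul_le_mul_of_nonneg_right h1 h2
    linarith
  have e6 : δ₁ * E * Y2 ≤ δ / 2 * (E * Y2) := by
    have := mul_le_mul_of_nonneg_right d1 EY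
    linarith
  have e7 : δ₁ * K * T ≤ K * T := by
    have := mul_le_mul_of_nonneg_right d2 KT
    linarith
  have e8 : 0 ≤ δ * (E * Y2) := mul_nonneg hδ.le EY
  rw [e1] at low
  linarith

/-- The end of `(PI')`. -/
theorem finIc {C δ δ₁ K E s c τ Y2 b D nn q h Cd f3 f4 : ℝ} (hδ : 0 < δ) (hC : 0 < C)
    (hδ₁ : 0 < δ₁) (d1 : δ₁ ≤ δ / 2) (d2 : δ₁ ≤ 1) (K1 : 1 ≤ K) (E0 : 0 < E) (KE : K ≤ E)
    (s0 : 0 ≤ s) (s1 : s ≤ 1) (D0 : 0 ≤ D) (Y0 : 0 ≤ Y2) (hCd : 0 < Cd)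
    (n1 : 1 ≤ nn) (hK : C ≤ 8 * δ * δ₁ * K) (c1 : c ≤ 1) (hc : E * s ≤ c * K)
    (hf3 : |f3| ≤ Cd * K) (hf4 : |f4| ≤ Cd * K) (hK2 : 64 * Cd ^ 2 + 8 * Cd ≤ 8 * δ * K)
    (low : -(32 * nn * (1 + δ₁) * E ^ 2 * b ^ 2) - δ₁ * E * Y2 - δ₁ * K * τ ^ 2 -
      C * E * (K + E * s) * D - C * E ^ 2 / (δ₁ * E) * (D + s * b ^ 2) ≤
      q + 8 * (2 * b) * (f3 * τ) - 2 * f4 * (2 * b) ^ 2)
    (hess : 4 * (K * τ ^ 2) + 8 * (1 - 2 * (δ / 4)) * (E * Y2) ≤ 8 * h) :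
    8 * (1 - δ) * E * Y2 + K * τ ^ 2 - 32 * nn * (1 + δ) * E ^ 2 * b ^ 2 -
      (2 * C + C / δ₁) * E * K * D ≤ 8 * h + q := by
  have K0 : 0 < K := by linarith
  have B0 : 0 ≤ b ^ 2 := sq_nonneg b
  have EY : 0 ≤ E * Y2 := mul_nonneg E0.le Y0
  have KT : 0 ≤ K * τ ^ 2 := mul_nonneg K0.le (sq_nonneg _)
  have e1 : C * E ^ 2 / (δ₁ * E) * (D + s * b ^ 2) =
      C / δ₁ * E * D + C / δ₁ * (E * s * b ^ 2) := by
    field_simp
  have hKt : E * s ≤ K := hc.trans (mul_le_of_le_one_left K0.le c1)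
  have EB : 0 ≤ E ^ 2 * b ^ 2 := by positivity
  have e2 : C / δ₁ * (E * s * b ^ 2) ≤ 8 * δ * E ^ 2 * b ^ 2 := by
    have h1 : C / δ₁ ≤ 8 * δ * K := by
      rw [div_le_iff₀ hδ₁]; linarith
    have h2 : E * s ≤ E := mul_le_of_le_one_right E0.le s1
    have h3 : C / δ₁ * (E * s) ≤ 8 * δ * K * E :=
      mul_le_mul h1 h2 (by positivity) (by positivity)
    have h4 : 8 * δ * K * E ≤ 8 * δ * E * E :=
      mul_le_mul_of_nonneg_right (mul_le_mul_of_nonneg_left KE (by positivity)) E0.le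
    have h5 := mul_le_mul_of_nonneg_right (h3.trans h4) B0
    calc C / δ₁ * (E * s * b ^ 2) = C / δ₁ * (E * s) * b ^ 2 := by ring
      _ ≤ 8 * δ * E * E * b ^ 2 := h5
      _ = _ := by ring
  have e3 : C * E * (K + E * s) * D ≤ 2 * C * E * K * D := by
    have : C * E * (K + E * s) ≤ 2 * C * E * K := by
      have := mul_le_mul_of_nonneg_left hKt (by positivity : 0 ≤ C * E)
      linarith
    exact mul_le_mul_of_nonneg_right this D0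
  have e4 : C / δ₁ * E * D ≤ C / δ₁ * E * K * D := by
    have h1 : 0 ≤ C / δ₁ * E * D := by positivity
    have := mul_le_mul_of_nonneg_left K1 h1
    linarith
  have e5 : 32 * nn * (1 + δ₁) * E ^ 2 * b ^ 2 + 16 * δ * E ^ 2 * b ^ 2 ≤
      32 * nn * (1 + δ) * E ^ 2 * b ^ 2 := by
    have h1 : 32 * nn * (1 + δ₁) + 16 * δ ≤ 32 * nn * (1 + δ) := by nlinarith
    have := mul_le_mul_of_nonneg_right h1 EB
    linarith
  have e6 : δ₁ * E * Y2 ≤ δ / 2 * (E * Y2) := by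
    have := mul_le_mul_of_nonneg_right d1 EY
    linarith
  have e7 : δ₁ * K * τ ^ 2 ≤ K * τ ^ 2 := by
    have := mul_le_mul_of_nonneg_right d2 KT
    linarith
  have e8 : 0 ≤ δ * (E * Y2) := mul_nonneg hδ.le EY
  -- the third and fourth derivative of the slope
  have g3 : 8 * (2 * b) * (f3 * τ) ≤ K * τ ^ 2 + 64 * Cd ^ 2 * (K * b ^ 2) := by
    have h1 := (abs_le.1 (mb hf3 (le_refl |b * τ|))).2
    have h2 := young K0 |τ| (8 * (Cd * K) * |b|)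
    have h3 : (8 * (Cd * K) * |b|) ^ 2 / K = 64 * Cd ^ 2 * (K * b ^ 2) := by
      rw [mul_pow, sq_abs]; field_simp; ring
    rw [h3, sq_abs, ] at h2
    rw [abs_mul] at h1
    have h4 : 8 * (2 * b) * (f3 * τ) = 16 * (f3 * (b * τ)) := by ring
    rw [h4]
    linarith
  have g4 : -(8 * Cd * (K * b ^ 2)) ≤ 2 * f4 * (2 * b) ^ 2 := by
    have h1 := (abs_le.1 (mb hf4 (abs_of_nonneg B0).le)).1
    have h4 : 2 * f4 * (2 * b) ^ 2 = 8 * (f4 * b ^ 2) := by ring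
    rw [h4]
    linarith
  have g5 : (64 * Cd ^ 2 + 8 * Cd) * (K * b ^ 2) ≤ 8 * δ * E ^ 2 * b ^ 2 := by
    have h1 : 0 ≤ K * b ^ 2 := mul_nonneg K0.le B0
    have h2 := mul_le_mul_of_nonneg_right hK2 h1
    have h3 : K * K ≤ E ^ 2 := by nlinarith
    have h4 : 8 * δ * K * (K * b ^ 2) ≤ 8 * δ * E ^ 2 * b ^ 2 := by
      have := mul_le_mul_of_nonneg_left (mul_le_mul_of_nonneg_right h3 B0)
        (by positivity : 0 ≤ 8 * δ)
      linarith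
    linarith
  rw [e1] at low
  linarith

/-- The end of `(P0)`. -/
theorem finP {R K E T Y2 B D cn nn q X x y h : ℝ} (K0 : 0 < K) (E0 : 0 < E)
    (n0 : 0 ≤ nn) (B0 : 0 ≤ B) (D0 : 0 ≤ D) (Y0 : 0 ≤ Y2) (hBD : B + D = (x ^ 2 + y ^ 2) / 2)
    (T0 : 0 ≤ T)
    (key : R * X ≤ E * Y2 + K * T +
      8 * R ^ 2 * ((E + E ^ 2 + K + K ^ 2 + E ^ 2 / K) * (B + D)))
    (low : -(32 * nn * cn * B) - R * X ≤ q) (hcn : cn ≤ (1 + 1) ^ 2 * E ^ 2)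
    (hess : 4 * (K * T) + 8 * (1 - 2 * (1 / 8)) * (E * Y2) ≤ 8 * h) :
    E * Y2 + K * T - (64 * nn + 4 * R ^ 2) * (E + E ^ 2 + K + K ^ 2 + E ^ 2 / K) *
      (x ^ 2 + y ^ 2) ≤ 8 * h + q := by
  have EY : 0 ≤ E * Y2 := mul_nonneg E0.le Y0
  have KT : 0 ≤ K * T := mul_nonneg K0.le T0
  obtain ⟨S, hS⟩ : ∃ S, S = E + E ^ 2 + K + K ^ 2 + E ^ 2 / K := ⟨_, rfl⟩
  have S1 : E ^ 2 ≤ S := by
    have h1 : 0 ≤ E ^ 2 / K := by positivity
    rw [hS]; nlinarith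
  have e1 : 32 * nn * cn * B ≤ 128 * nn * (S * (B + D)) := by
    have h1 : cn ≤ 4 * S := by linarith
    have h2 : 32 * nn * cn * B ≤ 32 * nn * (4 * S) * B :=
      mul_le_mul_of_nonneg_right (mul_le_mul_of_nonneg_left h1 (by linarith)) B0
    have h3 : 0 ≤ S := (sq_nonneg E).trans S1
    have h4 : 0 ≤ nn * (S * D) := mul_nonneg n0 (mul_nonneg h3 D0)
    linarith
  rw [← hS] at key ⊢
  have e2 : (64 * nn + 4 * R ^ 2) * S * (x ^ 2 + y ^ 2) = 128 * nn * (S * (B + D)) +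
      8 * R ^ 2 * (S * (B + D)) := by rw [hBD]; ring
  rw [e2]
  linarith

end Vale.Agent.P088.R2.H406.C
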